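import Vale.Agent.Lib.P254L.LocMain

open Vale.Agent.Lib.P254 in
open Set in
/-- **The simplex is a strict local maximizer of the isotropic constant**, with an explicit
neighbourhood. If a convex body `K ⊆ ℝⁿ` lies in an `n`-simplex `Δ = conv (p₀, …, pₙ)` with
`|Δ| ≤ (1 + (6 n⁵)⁻ⁿ) |K|`, then `L_K ≤ L_{Δₙ}`, with equality if and only if `K` is itself a
simplex. -/
theorem Vale.Agent.Results.P254.LocalMaximum.result (n : ℕ) (hn : 1 ≤ n) (K : Set (Fin n → ℝ))
    (hK : IsCompact K) (hcv : Convex ℝ K) (hi : (interior K).Nonempty)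
    (p : Fin (n + 1) → (Fin n → ℝ)) (hsub : K ⊆ convexHull ℝ (range p))
    (hvol : vol (convexHull ℝ (range p)) ≤ (1 + 1 / (6 * (n : ℝ) ^ 5) ^ n) * vol K) :
    isoConstant K ≤ isoConstant (unitSimplex (Fin n)) ∧
    (isoConstant K = isoConstant (unitSimplex (Fin n)) ↔
      ∃ q : Fin (n + 1) → (Fin n → ℝ), K = convexHull ℝ (range q)) := by
  classical
  obtain ⟨m, rfl⟩ : ∃ m, n = m + 1 := ⟨n - 1, by omega⟩
  have hvol' : vol (convexHull ℝ (range p)) ≤
      (1 + 1 / (6 * ((m : ℝ) + 1) ^ 5) ^ (m + 1)) * vol K := by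
    simpa using hvol
  obtain ⟨h1, h2⟩ := Vale.Agent.Lib.P254L.local_main hK hcv hi p hsub hvol'
  have hUpos : 0 < isoPower (unitSimplex (Fin (m + 1))) :=
    isoPower_pos isCompact_unitSimplex interior_unitSimplex_nonempty
  have hKpos : 0 < isoPower K := isoPower_pos hK hi
  have hexp : (1 : ℝ) / (2 * (Fintype.card (Fin (m + 1)) : ℝ)) ≠ 0 := by
    simp only [Fintype.card_fin]
    positivity
  have hexp' : (0 : ℝ) ≤ (1 : ℝ) / (2 * (Fintype.card (Fin (m + 1)) : ℝ)) := by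
    positivity
  refine ⟨?_, ?_⟩
  · unfold isoConstant
    exact Real.rpow_le_rpow hKpos.le h1 hexp'
  · unfold isoConstant
    rw [Real.rpow_left_inj hKpos.le hUpos.le hexp]
    exact h2
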