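import Vale.Agent.Lib.P254.NPlusTwo

open Vale.Agent.Lib.P254 in
open Set in
/-- The strong isotropic constant conjecture for convex polytopes with at most `n + 2` vertices,
with an exact formula: if `c ≠ 0` is an affine dependency of the `n + 2` points, with normalized
positive and negative parts `λ` and `μ`, then
`L_K^{2n} = L_{Δ_n}^{2n} · (1 - (1 - |λ|²)(1 - |μ|²))`. -/
theorem Vale.Agent.Results.P254.NPlusTwoVertices.result (n : ℕ) (hn : 1 ≤ n)
    (p : Fin (n + 2) → (Fin n → ℝ))
    (hp : (interior (convexHull ℝ (range p))).Nonempty) :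
    (∃ c : Fin (n + 2) → ℝ, c ≠ 0 ∧ ∑ i, c i = 0 ∧ ∑ i, c i • p i = 0) ∧
    (∀ c : Fin (n + 2) → ℝ, c ≠ 0 → ∑ i, c i = 0 → ∑ i, c i • p i = 0 →
      isoPower (convexHull ℝ (range p)) =
        isoPower (unitSimplex (Fin n)) * (1 - (1 - posNormSq c) * (1 - posNormSq (-c)))) ∧
    isoConstant (convexHull ℝ (range p)) ≤ isoConstant (unitSimplex (Fin n)) ∧
    (isoConstant (convexHull ℝ (range p)) = isoConstant (unitSimplex (Fin n)) ↔
      ∃ i, convexHull ℝ (range p) = convexHull ℝ (p '' {i}ᶜ)) := by
  classical
  haveI : Nonempty (Fin n) := ⟨⟨0, hn⟩⟩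
  obtain ⟨c, hc0, hc1, hc2⟩ := exists_dependency p
  have hform := isoPower_hull_formula p hn hp hc0 hc1 hc2
  have hsimp_pos : 0 < isoPower (unitSimplex (Fin n)) :=
    isoPower_pos isCompact_unitSimplex interior_unitSimplex_nonempty
  have hneg0 : -c ≠ 0 := neg_ne_zero.2 hc0
  have hneg1 : ∑ i, (-c) i = 0 := by simp [hc1]
  have a0 := posNormSq_nonneg c
  have a1 := posNormSq_le_one c hc0 hc1
  have b0 := posNormSq_nonneg (-c)
  have b1 := posNormSq_le_one (-c) hneg0 hneg1
  have hfac0 : 0 ≤ (1 - posNormSq c) * (1 - posNormSq (-c)) :=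
    mul_nonneg (by linarith) (by linarith)
  have hfac1 : (1 - posNormSq c) * (1 - posNormSq (-c)) ≤ 1 := by nlinarith
  have hKnn : 0 ≤ isoPower (convexHull ℝ (range p)) := by
    rw [hform]
    exact mul_nonneg hsimp_pos.le (by linarith)
  have hexp : (1 : ℝ) / (2 * (Fintype.card (Fin n) : ℝ)) ≠ 0 := by
    have : (0 : ℝ) < (Fintype.card (Fin n) : ℝ) := by
      rw [Fintype.card_fin]
      exact_mod_cast hn
    positivity
  have hexp' : (0 : ℝ) ≤ (1 : ℝ) / (2 * (Fintype.card (Fin n) : ℝ)) := by positivity
  refine ⟨⟨c, hc0, hc1, hc2⟩, fun d h0 h1 h2 => isoPower_hull_formula p hn hp h0 h1 h2, ?_, ?_⟩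
  · unfold isoConstant
    apply Real.rpow_le_rpow hKnn _ hexp'
    rw [hform]
    nlinarith
  · unfold isoConstant
    rw [Real.rpow_left_inj hKnn hsimp_pos.le hexp]
    constructor
    · intro heq
      rw [hform] at heq
      have h1 : (1 - posNormSq c) * (1 - posNormSq (-c)) = 0 := by
        have : isoPower (unitSimplex (Fin n)) * (1 - (1 - posNormSq c) * (1 - posNormSq (-c))) =
            isoPower (unitSimplex (Fin n)) * 1 := by rw [heq, mul_one]
        have h2 := mul_left_cancel₀ hsimp_pos.ne' this
        linarith
      -- one of the two parts is a unit vector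
      have key : ∀ d : Fin (n + 2) → ℝ, d ≠ 0 → ∑ i, d i = 0 → ∑ i, d i • p i = 0 →
          posNormSq d = 1 → ∃ i, convexHull ℝ (range p) = convexHull ℝ (p '' {i}ᶜ) := by
        intro d hd0 hd1 hd2 hd3
        obtain ⟨u, hu1, hu2⟩ := exists_of_posNormSq_eq_one d hd0 hd1 hd3
        have hs := posMass_pos d hd0 hd1
        refine ⟨u, ?_⟩
        apply Subset.antisymm
        · apply convexHull_min _ (convex_convexHull ℝ _)
          rintro _ ⟨k, rfl⟩
          by_cases hk : k = u
          · -- `p u` is a convex combination of the others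
            subst hk
            have hsplit : d k • p k = ∑ j ∈ Finset.univ.erase k, (-d j) • p j := by
              have := Finset.add_sum_erase Finset.univ (fun i => d i • p i) (Finset.mem_univ k)
              rw [hd2] at this
              simp only [neg_smul, Finset.sum_neg_distrib]
              exact eq_neg_of_add_eq_zero_left this
            have hsum : ∑ j ∈ Finset.univ.erase k, (-d j) = d k := by
              have := Finset.add_sum_erase Finset.univ d (Finset.mem_univ k)
              rw [hd1] at this
              rw [Finset.sum_neg_distrib]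
              linarith
            have hdk : 0 < d k := by rw [hu1]; exact hs
            have hw := (convex_convexHull ℝ (p '' {k}ᶜ)).sum_mem
              (t := Finset.univ.erase k) (w := fun j => (-d j) / d k) (z := p)
              (fun j hj => div_nonneg (by linarith [hu2 j (Finset.mem_erase.1 hj).1]) hdk.le)
              (by rw [← Finset.sum_div, hsum, div_self hdk.ne'])
              (fun j hj => subset_convexHull ℝ _ ⟨j, (Finset.mem_erase.1 hj).1, rfl⟩)
            have heq2 : ∑ j ∈ Finset.univ.erase k, ((-d j) / d k) • p j = p k := by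
              have h3 : ∑ j ∈ Finset.univ.erase k, ((-d j) / d k) • p j =
                  (d k)⁻¹ • ∑ j ∈ Finset.univ.erase k, (-d j) • p j := by
                rw [Finset.smul_sum]
                refine Finset.sum_congr rfl (fun j _ => ?_)
                rw [smul_smul, div_eq_inv_mul]
              rw [h3, ← hsplit, smul_smul, inv_mul_cancel₀ hdk.ne', one_smul]
            rw [← heq2]
            exact hw
          · exact subset_convexHull ℝ _ ⟨k, hk, rfl⟩
        · exact convexHull_mono (image_subset_range _ _)
      rcases mul_eq_zero.1 h1 with h2 | h2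
      · exact key c hc0 hc1 hc2 (by linarith)
      · refine key (-c) hneg0 hneg1 ?_ (by linarith)
        simp only [Pi.neg_apply, neg_smul, Finset.sum_neg_distrib, hc2, neg_zero]
    · rintro ⟨i, hi⟩
      rw [hi] at hp ⊢
      exact isoPower_of_eq_hull_erase p hn i hp
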