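import Vale.Agent.Lib.P254L.Sandwich

open Vale.Agent.Lib.P254 in
open Set in
/-- **Polynomial Banach-Mazur neighbourhood of the simplex.** Let `K ⊆ ℝⁿ` be a convex body lying
between two `n`-simplices, `conv p ⊆ K ⊆ conv q`, whose volumes satisfy
`(1 - 1 / (26 n⁴)) |conv q| ≤ |conv p|`. Then `L_K ≤ L_{Δₙ}`, with equality if and only if `K` is
itself a simplex. -/
theorem Vale.Agent.Results.P254.SandwichSimplex.result (n : ℕ) (hn : 1 ≤ n) (K : Set (Fin n → ℝ))
    (hK : IsCompact K) (hcv : Convex ℝ K)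
    (p q : Fin (n + 1) → (Fin n → ℝ)) (hp : (interior (convexHull ℝ (range p))).Nonempty)
    (hpK : convexHull ℝ (range p) ⊆ K) (hKq : K ⊆ convexHull ℝ (range q))
    (hvol : (1 - 1 / (26 * (n : ℝ) ^ 4)) * vol (convexHull ℝ (range q)) ≤
      vol (convexHull ℝ (range p))) :
    isoConstant K ≤ isoConstant (unitSimplex (Fin n)) ∧
    (isoConstant K = isoConstant (unitSimplex (Fin n)) ↔
      ∃ r : Fin (n + 1) → (Fin n → ℝ), K = convexHull ℝ (range r)) := by
  classical
  obtain ⟨m, rfl⟩ : ∃ m, n = m + 1 := ⟨n - 1, by omega⟩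
  have hvol' : (1 - 1 / (26 * ((m : ℝ) + 1) ^ 4)) * vol (convexHull ℝ (range q)) ≤
      vol (convexHull ℝ (range p)) := by
    simpa using hvol
  obtain ⟨h1, h2⟩ := Vale.Agent.Lib.P254L.sandwich_main hK hcv p q hp hpK hKq hvol'
  have hi : (interior K).Nonempty := hp.mono (interior_mono hpK)
  have hUpos : 0 < isoPower (unitSimplex (Fin (m + 1))) :=
    isoPower_pos isCompact_unitSimplex interior_unitSimplex_nonempty
  have hKpos : 0 < isoPower K := isoPower_pos hK hi
  have hexp : (1 : ℝ) / (2 * (Fintype.card (Fin (m + 1)) : ℝ)) ≠ 0 := by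
    simp only [Fintype.card_fin]
    positivity
  have hexp' : (0 : ℝ) ≤ (1 : ℝ) / (2 * (Fintype.card (Fin (m + 1)) : ℝ)) := by
    positivity
  refine ⟨?_, ?_⟩
  · unfold isoConstant
    exact Real.rpow_le_rpow hKpos.le h1 hexp'
  · unfold isoConstant
    rw [Real.rpow_left_inj hKpos.le hUpos.le hexp]
    exact h2
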