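import Vale.Agent.Results.P254.FreeSumClosure
import Vale.Agent.Results.P254.LocalMaximum
import Vale.Agent.Results.P254.NPlusTwoVertices
import Vale.Agent.Results.P254.SandwichSimplex

open Vale.Agent.Lib.P254 in
open Set in
/-- **The strong isotropic constant conjecture: the classes settled so far, in one statement.**
(1) polytopes with at most `n + 2` vertices, with an exact formula; (2) every convex body between
two `n`-simplices whose volume ratio is at least `1 - 1 / (26 n⁴)`, with equality case; (3) every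
convex body in a simplex of volume at most `(1 + (6 n⁵)⁻ⁿ) |K|`, with equality case; (4) the class
of bodies satisfying the conjecture is closed under free sums, with an exact defect factor. -/
theorem Vale.Agent.Results.P254.A00SimplexSummary.result :
    (∀ (n : ℕ) (_ : 1 ≤ n) (p : Fin (n + 2) → (Fin n → ℝ))
        (_ : (interior (convexHull ℝ (range p))).Nonempty),
      (∃ c : Fin (n + 2) → ℝ, c ≠ 0 ∧ ∑ i, c i = 0 ∧ ∑ i, c i • p i = 0) ∧
      (∀ c : Fin (n + 2) → ℝ, c ≠ 0 → ∑ i, c i = 0 → ∑ i, c i • p i = 0 →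
        isoPower (convexHull ℝ (range p)) =
          isoPower (unitSimplex (Fin n)) * (1 - (1 - posNormSq c) * (1 - posNormSq (-c)))) ∧
      isoConstant (convexHull ℝ (range p)) ≤ isoConstant (unitSimplex (Fin n)) ∧
      (isoConstant (convexHull ℝ (range p)) = isoConstant (unitSimplex (Fin n)) ↔
        ∃ i, convexHull ℝ (range p) = convexHull ℝ (p '' {i}ᶜ))) ∧
    (∀ (n : ℕ) (_ : 1 ≤ n) (K : Set (Fin n → ℝ))
        (_ : IsCompact K) (_ : Convex ℝ K)
        (p q : Fin (n + 1) → (Fin n → ℝ)) (_ : (interior (convexHull ℝ (range p))).Nonempty)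
        (_ : convexHull ℝ (range p) ⊆ K) (_ : K ⊆ convexHull ℝ (range q))
        (_ : (1 - 1 / (26 * (n : ℝ) ^ 4)) * vol (convexHull ℝ (range q)) ≤
          vol (convexHull ℝ (range p))),
      isoConstant K ≤ isoConstant (unitSimplex (Fin n)) ∧
      (isoConstant K = isoConstant (unitSimplex (Fin n)) ↔
        ∃ r : Fin (n + 1) → (Fin n → ℝ), K = convexHull ℝ (range r))) ∧
    (∀ (n : ℕ) (_ : 1 ≤ n) (K : Set (Fin n → ℝ))
        (_ : IsCompact K) (_ : Convex ℝ K) (_ : (interior K).Nonempty)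
        (p : Fin (n + 1) → (Fin n → ℝ)) (_ : K ⊆ convexHull ℝ (range p))
        (_ : vol (convexHull ℝ (range p)) ≤ (1 + 1 / (6 * (n : ℝ) ^ 5) ^ n) * vol K),
      isoConstant K ≤ isoConstant (unitSimplex (Fin n)) ∧
      (isoConstant K = isoConstant (unitSimplex (Fin n)) ↔
        ∃ q : Fin (n + 1) → (Fin n → ℝ), K = convexHull ℝ (range q))) ∧
    (∀ {ι κ : Type} [Fintype ι] [Fintype κ]
        [DecidableEq ι] [DecidableEq κ] [Nonempty ι] [Nonempty κ]
        {K₁ : Set (ι → ℝ)} {K₂ : Set (κ → ℝ)}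
        (_ : IsCompact K₁) (_ : Convex ℝ K₁) (_ : (0 : ι → ℝ) ∈ K₁)
        (_ : (interior K₁).Nonempty)
        (_ : IsCompact K₂) (_ : Convex ℝ K₂) (_ : (0 : κ → ℝ) ∈ K₂)
        (_ : (interior K₂).Nonempty),
      isoPower (freeSum K₁ K₂) / isoPower (unitSimplex (ι ⊕ κ)) =
        (isoPower K₁ / isoPower (unitSimplex ι)) * (isoPower K₂ / isoPower (unitSimplex κ)) *
        (1 - ((Fintype.card ι : ℝ) - mahal K₁ / ((Fintype.card ι : ℝ) + 2)) *
            ((Fintype.card κ : ℝ) - mahal K₂ / ((Fintype.card κ : ℝ) + 2)) /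
            (((Fintype.card ι : ℝ) + 1) * ((Fintype.card κ : ℝ) + 1))) ∧
      0 ≤ mahal K₁ / ((Fintype.card ι : ℝ) + 2) ∧
      mahal K₁ / ((Fintype.card ι : ℝ) + 2) ≤ (Fintype.card ι : ℝ) ∧
      0 ≤ mahal K₂ / ((Fintype.card κ : ℝ) + 2) ∧
      mahal K₂ / ((Fintype.card κ : ℝ) + 2) ≤ (Fintype.card κ : ℝ) ∧
      isoPower (freeSum K₁ K₂) / isoPower (unitSimplex (ι ⊕ κ)) ≤
        (isoPower K₁ / isoPower (unitSimplex ι)) * (isoPower K₂ / isoPower (unitSimplex κ))) :=
  ⟨fun n hn p hp => Vale.Agent.Results.P254.NPlusTwoVertices.result n hn p hp,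
   fun n hn K hK hcv p q hp hpK hKq hvol =>
     Vale.Agent.Results.P254.SandwichSimplex.result n hn K hK hcv p q hp hpK hKq hvol,
   fun n hn K hK hcv hi p hsub hvol =>
     Vale.Agent.Results.P254.LocalMaximum.result n hn K hK hcv hi p hsub hvol,
   fun h₁ hc₁ h0₁ hi₁ h₂ hc₂ h0₂ hi₂ =>
     Vale.Agent.Results.P254.FreeSumClosure.result h₁ hc₁ h0₁ hi₁ h₂ hc₂ h0₂ hi₂⟩
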