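import Vale.Agent.Lib.P254.Main

open Vale.Agent.Lib.P254 in
/-- Multiplicativity of the conjecture under free sums: for convex bodies `K₁ ⊆ ℝ^ι`, `K₂ ⊆ ℝ^κ`
containing the origin, the free sum `K = conv(K₁ × 0 ∪ 0 × K₂)` satisfies
`L_K^{2n}/L_{Δ_n}^{2n} = (L_{K₁}^{2a}/L_{Δ_a}^{2a}) (L_{K₂}^{2b}/L_{Δ_b}^{2b}) · (1 - (a-R₁)(b-R₂)/((a+1)(b+1)))`,
where `R₁ = b₁ᵀ Σ₁⁻¹ b₁/(a+2) ∈ [0,a]` and `R₂ = b₂ᵀ Σ₂⁻¹ b₂/(b+2) ∈ [0,b]`.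
In particular the class of bodies satisfying the conjecture is closed under free sums. -/
theorem Vale.Agent.Results.P254.FreeSumClosure.result {ι κ : Type*} [Fintype ι] [Fintype κ]
    [DecidableEq ι] [DecidableEq κ] [Nonempty ι] [Nonempty κ]
    {K₁ : Set (ι → ℝ)} {K₂ : Set (κ → ℝ)}
    (h₁ : IsCompact K₁) (hc₁ : Convex ℝ K₁) (h0₁ : (0 : ι → ℝ) ∈ K₁)
    (hi₁ : (interior K₁).Nonempty)
    (h₂ : IsCompact K₂) (hc₂ : Convex ℝ K₂) (h0₂ : (0 : κ → ℝ) ∈ K₂)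
    (hi₂ : (interior K₂).Nonempty) :
    isoPower (freeSum K₁ K₂) / isoPower (unitSimplex (ι ⊕ κ)) =
      (isoPower K₁ / isoPower (unitSimplex ι)) * (isoPower K₂ / isoPower (unitSimplex κ)) *
      (1 - ((Fintype.card ι : ℝ) - mahal K₁ / ((Fintype.card ι : ℝ) + 2)) *
          ((Fintype.card κ : ℝ) - mahal K₂ / ((Fintype.card κ : ℝ) + 2)) /
          (((Fintype.card ι : ℝ) + 1) * ((Fintype.card κ : ℝ) + 1))) ∧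
    0 ≤ mahal K₁ / ((Fintype.card ι : ℝ) + 2) ∧
    mahal K₁ / ((Fintype.card ι : ℝ) + 2) ≤ (Fintype.card ι : ℝ) ∧
    0 ≤ mahal K₂ / ((Fintype.card κ : ℝ) + 2) ∧
    mahal K₂ / ((Fintype.card κ : ℝ) + 2) ≤ (Fintype.card κ : ℝ) ∧
    isoPower (freeSum K₁ K₂) / isoPower (unitSimplex (ι ⊕ κ)) ≤
      (isoPower K₁ / isoPower (unitSimplex ι)) * (isoPower K₂ / isoPower (unitSimplex κ)) := by
  obtain ⟨hm1, hm2⟩ := mahal_bounds h₁ hc₁ h0₁ hi₁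
  obtain ⟨hn1, hn2⟩ := mahal_bounds h₂ hc₂ h0₂ hi₂
  have ha : (0 : ℝ) ≤ (Fintype.card ι : ℝ) := Nat.cast_nonneg _
  have hb : (0 : ℝ) ≤ (Fintype.card κ : ℝ) := Nat.cast_nonneg _
  refine ⟨isoRatio_freeSum h₁ hc₁ h0₁ hi₁ h₂ hc₂ h0₂ hi₂, by positivity, ?_, by positivity, ?_,
    isoRatio_freeSum_le h₁ hc₁ h0₁ hi₁ h₂ hc₂ h0₂ hi₂⟩
  · rw [div_le_iff₀ (by positivity)]
    exact hm2
  · rw [div_le_iff₀ (by positivity)]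
    exact hn2
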